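import Vale.Agent.P183.R2.H577.Base
import Vale.Agent.P183.H996.Dual

/-! P183: ROW 5 (order isomorphism between intermediate rings and overgroups of the block
diagonal group). -/

namespace Vale.Agent.P183.H577

open Matrix Vale.Agent.P183 Vale.Agent.P183.H996

variable {R : Type} [Ring R] [Finite R] {n : ℕ}

/-- the block diagonal group is contained in the group of every intermediate ring -/
theorem iso_bl_le {ι : Type} [Fintype ι] [DecidableEq ι] (e : Fin n → R) (p : ι → Fin n)
    (S : Subring R) (hS : ∀ i x, e i * x * e i ∈ S) : bl e p ≤ gl e S p := by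
  intro g hg
  have h1 : Blk e p (g.1 - 1) := hg
  show Ent e S p (g.1 - 1)
  intro a b
  refine ⟨?_, (h1.1 a b).2⟩
  by_cases hab : p a = p b
  · have h2 := hS (p a) ((g.1 - 1) a b)
    rw [(h1.1 a b).2.1] at h2
    rw [hab, (h1.1 a b).2.2] at h2
    exact h2
  · rw [h1.2 a b hab]
    exact S.zero_mem

/-- the group of a ring is monotone in the ring -/
theorem iso_gl_mono {ι : Type} [Fintype ι] [DecidableEq ι] (e : Fin n → R) (p : ι → Fin n)
    {S S' : Subring R} (h : S ≤ S') : gl e S p ≤ gl e S' p := by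
  intro g hg
  have h1 : Ent e S p (g.1 - 1) := hg
  exact h1.mono h

/-- the elementary matrix as a unit -/
def isoT {ι : Type} [Fintype ι] [DecidableEq ι] (a b : ι) (hab : a ≠ b) (r : R) :
    (Matrix ι ι R)ˣ where
  val := 1 + Matrix.single a b r
  inv := 1 - Matrix.single a b r
  val_inv := by
    have h : Matrix.single a b r * Matrix.single a b r = 0 := by
      rw [Matrix.single_mul_single_of_ne _ _ _ _ (Ne.symm hab)]
    rw [add_mul, mul_sub, mul_sub, h, one_mul, one_mul, mul_one]
    abel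
  inv_val := by
    have h : Matrix.single a b r * Matrix.single a b r = 0 := by
      rw [Matrix.single_mul_single_of_ne _ _ _ _ (Ne.symm hab)]
    rw [sub_mul, mul_add, mul_add, h, one_mul, one_mul, mul_one]
    abel

/-- the group determines the ring -/
theorem iso_le_of_gl_le {ι : Type} [Fintype ι] [DecidableEq ι] (e : Fin n → R)
    (he : ∀ i, e i * e i = e i) (hs : ∑ i, e i = 1)
    (p : ι → Fin n) (hp : Function.Surjective p) {S S' : Subring R}
    (hS : ∀ i x, e i * x * e i ∈ S) (hS' : ∀ i x, e i * x * e i ∈ S')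
    (h : gl e S p ≤ gl e S' p) : S ≤ S' := by
  intro x hx
  have heS : ∀ i, e i ∈ S := fun i => by
    have h1 := hS i 1
    rwa [mul_one, he] at h1
  have hx' : x = ∑ i, ∑ j, e i * x * e j := by
    calc x = (∑ i, e i) * x * (∑ j, e j) := by rw [hs, one_mul, mul_one]
      _ = ∑ i, ∑ j, e i * x * e j := by
        rw [Finset.sum_mul, Finset.sum_mul]
        exact Finset.sum_congr rfl fun i _ => Finset.mul_sum _ _ _
  rw [hx']
  refine S'.sum_mem fun i _ => S'.sum_mem fun j _ => ?_
  by_cases hij : i = j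
  · subst hij
    exact hS' i x
  · obtain ⟨a, ha⟩ := hp i
    obtain ⟨b, hb⟩ := hp j
    have hab : a ≠ b := fun h1 => hij (by rw [← ha, ← hb, h1])
    have hm : isoT a b hab (e i * x * e j) ∈ gl e S p := by
      show Ent e S p ((1 + Matrix.single a b (e i * x * e j)) - 1)
      rw [add_sub_cancel_left]
      intro c d
      by_cases hcd : a = c ∧ b = d
      · obtain ⟨rfl, rfl⟩ := hcd
        rw [Matrix.single_apply_same]
        refine ⟨S.mul_mem (S.mul_mem (heS i) hx) (heS j), ?_, ?_⟩
        · rw [ha, ← mul_assoc, ← mul_assoc, he]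
        · rw [hb, mul_assoc, he]
      · rw [Matrix.single_apply_of_ne _ _ _ _ _ hcd]
        exact ⟨S.zero_mem, by simp, by simp⟩
    have h2 : Ent e S' p ((1 + Matrix.single a b (e i * x * e j)) - 1) := h hm
    rw [add_sub_cancel_left] at h2
    have h3 := (h2 a b).1
    rwa [Matrix.single_apply_same] at h3

/-- ROW 5 (order isomorphism), file Iso.lean. -/
theorem iso_row {ι : Type} [Fintype ι] [DecidableEq ι] (e : Fin n → R)
    (he : ∀ i, e i * e i = e i) (ho : ∀ i j, i ≠ j → e i * e j = 0) (hs : ∑ i, e i = 1)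
    (p : ι → Fin n) (hp : Function.Surjective p)
    (hB : ∀ K : Subgroup (Matrix ι ι R)ˣ, bl e p ≤ K → K ≤ gl e ⊤ p →
      ∃ S : Subring R, (∀ i x, e i * x * e i ∈ S) ∧ K = gl e S p) :
    GroupInterval {S : Subring R // ∀ i x, e i * x * e i ∈ S} := by
  have hfin : Finite (Matrix ι ι R) := inferInstanceAs (Finite (ι → ι → R))
  have hbt : bl e p ≤ gl e ⊤ p := iso_bl_le e p ⊤ fun _ _ => Subring.mem_top _
  have hfu : Finite (Matrix ι ι R)ˣ := Finite.of_injective _ Units.val_injective
  have hfg : Finite (gl e ⊤ p) := inferInstance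
  refine ⟨gl e ⊤ p, inferInstance, hfg, (bl e p).subgroupOf (gl e ⊤ p), ⟨?_⟩⟩
  let f : {S : Subring R // ∀ i x, e i * x * e i ∈ S} →
      {Y : Subgroup (gl e ⊤ p) // (bl e p).subgroupOf (gl e ⊤ p) ≤ Y} := fun S =>
    ⟨(gl e S.1 p).subgroupOf (gl e ⊤ p), fun g hg => iso_bl_le e p S.1 S.2 hg⟩
  have hf : ∀ S T, f S ≤ f T ↔ S ≤ T := by
    intro S T
    constructor
    · intro h
      refine iso_le_of_gl_le e he hs p hp S.2 T.2 fun g hg => ?_
      have h1 : g ∈ gl e ⊤ p := iso_gl_mono e p le_top hg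
      exact h (show (⟨g, h1⟩ : gl e ⊤ p) ∈ (gl e S.1 p).subgroupOf (gl e ⊤ p) from hg)
    · intro h g hg
      exact iso_gl_mono e p h hg
  have hsurj : Function.Surjective f := by
    rintro ⟨Y, hY⟩
    obtain ⟨S, hS, hK⟩ := hB (Y.map (gl e ⊤ p).subtype)
      (fun g hg => ⟨⟨g, hbt hg⟩, hY (show _ ∈ (bl e p).subgroupOf (gl e ⊤ p) from hg), rfl⟩)
      (by
        rintro _ ⟨g, _, rfl⟩
        exact g.2)
    refine ⟨⟨S, hS⟩, Subtype.ext ?_⟩
    show (gl e S p).subgroupOf (gl e ⊤ p) = Y
    rw [← hK]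
    ext g
    constructor
    · rintro ⟨g', hg', h⟩
      have h1 : g' = g := Subtype.ext h
      rw [← h1]
      exact hg'
    · intro hg
      exact ⟨g, hg, rfl⟩
  have hinj : Function.Injective f := fun S T h =>
    le_antisymm ((hf S T).1 h.le) ((hf T S).1 h.ge)
  exact
    { toEquiv := Equiv.ofBijective f ⟨hinj, hsurj⟩
      map_rel_iff' := fun {S T} => hf S T }

end Vale.Agent.P183.H577
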