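import Vale.Agent.P183.H996.Dual

/-! P183: ROW 12 (subgroups invariant under automorphisms are group intervals: semidirect product
with the group which the automorphisms generate). -/

namespace Vale.Agent.P183.H577

open Vale.Agent.P183 Vale.Agent.P183.H996

namespace H808

/-- a subgroup invariant under a set of automorphisms of a finite group is invariant under the
group which they generate -/
theorem inv_closure {G : Type} [Group G] [Finite G] (Aa : Set (MulAut G)) (K : Subgroup G)
    (hK : ∀ α ∈ Aa, ∀ k ∈ K, α k ∈ K) (α : MulAut G) (hα : α ∈ Subgroup.closure Aa) :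
    ∀ k ∈ K, α k ∈ K := by
  induction hα using Subgroup.closure_induction with
  | mem x hx => exact hK x hx
  | one => exact fun k hk => hk
  | mul x y _ _ hx hy => exact fun k hk => hx _ (hy _ hk)
  | inv x _ hx =>
    intro k hk
    let f : K → K := fun k => ⟨x k.1, hx k.1 k.2⟩
    have hf : Function.Injective f := fun a b h =>
      Subtype.ext (x.injective (congrArg Subtype.val h))
    obtain ⟨k', hk'⟩ := Finite.surjective_of_injective hf ⟨k, hk⟩
    have h1 : x k'.1 = k := congrArg Subtype.val hk'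
    have h2 : x⁻¹ k = k'.1 := by
      rw [← h1]
      exact x.symm_apply_apply k'.1
    rw [h2]
    exact k'.2

variable {G : Type} [Group G] (A : Subgroup (MulAut G))

/-- the elements of the semidirect product with left component in an invariant subgroup -/
def ext (K : Subgroup G) (hK : ∀ α ∈ A, ∀ k ∈ K, α k ∈ K) : Subgroup (G ⋊[A.subtype] A) where
  carrier := {w | w.left ∈ K}
  one_mem' := K.one_mem
  mul_mem' := by
    intro v w hv hw
    show (v * w).left ∈ K
    rw [SemidirectProduct.mul_left]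
    exact K.mul_mem hv (hK _ v.right.2 _ hw)
  inv_mem' := by
    intro v hv
    show (v⁻¹).left ∈ K
    rw [SemidirectProduct.inv_left]
    exact hK _ (v.right⁻¹).2 _ (K.inv_mem hv)

theorem mem_ext {K : Subgroup G} {hK : ∀ α ∈ A, ∀ k ∈ K, α k ∈ K} {w : G ⋊[A.subtype] A} :
    w ∈ ext A K hK ↔ w.left ∈ K := Iff.rfl

theorem ext_le_iff {K L : Subgroup G} {hK : ∀ α ∈ A, ∀ k ∈ K, α k ∈ K}
    {hL : ∀ α ∈ A, ∀ k ∈ L, α k ∈ L} : ext A K hK ≤ ext A L hL ↔ K ≤ L := by
  constructor
  · intro h k hk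
    have h1 : (SemidirectProduct.inl k : G ⋊[A.subtype] A) ∈ ext A K hK := hk
    exact h h1
  · intro h w hw
    exact h hw

end H808

/-- ROW 12: subgroups invariant under automorphisms (semidirect product with the group which they
generate). -/
theorem fix_row {G : Type} [Group G] [Finite G] (Aa : Set (MulAut G)) (H : Subgroup G)
    (hH : ∀ α ∈ Aa, ∀ h ∈ H, α h ∈ H) :
    GroupInterval {K : Subgroup G // H ≤ K ∧ ∀ α ∈ Aa, ∀ k ∈ K, α k ∈ K} := by
  let A : Subgroup (MulAut G) := Subgroup.closure Aa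
  have hA : ∀ K : Subgroup G, (∀ α ∈ Aa, ∀ k ∈ K, α k ∈ K) → ∀ α ∈ A, ∀ k ∈ K, α k ∈ K :=
    fun K hK α hα => H808.inv_closure Aa K hK α hα
  have hfM : Finite (MulAut G) := Finite.of_injective (fun α : MulAut G => (α : G → G))
    fun α β h => MulEquiv.ext fun x => congrFun h x
  have hfW : Finite (G ⋊[A.subtype] A) :=
    Finite.of_equiv _ (SemidirectProduct.equivProd (φ := A.subtype)).symm
  refine ⟨G ⋊[A.subtype] A, inferInstance, hfW, H808.ext A H (hA H hH), ⟨?_⟩⟩
  let f : {K : Subgroup G // H ≤ K ∧ ∀ α ∈ Aa, ∀ k ∈ K, α k ∈ K} →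
      {X : Subgroup (G ⋊[A.subtype] A) // H808.ext A H (hA H hH) ≤ X} := fun K =>
    ⟨H808.ext A K.1 (hA K.1 K.2.2), (H808.ext_le_iff A).2 K.2.1⟩
  have hf : ∀ K L, f K ≤ f L ↔ K ≤ L := fun K L =>
    H808.ext_le_iff A (hK := hA K.1 K.2.2) (hL := hA L.1 L.2.2)
  have hsurj : Function.Surjective f := by
    rintro ⟨X, hX⟩
    have hr : ∀ a : A, (SemidirectProduct.inr a : G ⋊[A.subtype] A) ∈ X := fun a =>
      hX (show (SemidirectProduct.inr a : G ⋊[A.subtype] A).left ∈ H from H.one_mem)
    let K : Subgroup G := X.comap SemidirectProduct.inl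
    have hKm : ∀ k, k ∈ K ↔ (SemidirectProduct.inl k : G ⋊[A.subtype] A) ∈ X := fun _ => Iff.rfl
    have hHK : H ≤ K := fun h hh =>
      hX (show (SemidirectProduct.inl h : G ⋊[A.subtype] A).left ∈ H from hh)
    have hKi : ∀ α ∈ Aa, ∀ k ∈ K, α k ∈ K := by
      intro α hα k hk
      have hαA : α ∈ A := Subgroup.subset_closure hα
      rw [hKm] at hk ⊢
      have h1 := X.mul_mem (X.mul_mem (hr ⟨α, hαA⟩) hk) (hr ⟨α, hαA⟩⁻¹)
      have h2 : (SemidirectProduct.inl (α k) : G ⋊[A.subtype] A) =
          SemidirectProduct.inr ⟨α, hαA⟩ * SemidirectProduct.inl k *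
            SemidirectProduct.inr (⟨α, hαA⟩⁻¹ : A) := by
        rw [← SemidirectProduct.inl_aut]
        rfl
      rw [h2]
      exact h1
    refine ⟨⟨K, hHK, hKi⟩, Subtype.ext ?_⟩
    ext w
    show w.left ∈ K ↔ w ∈ X
    rw [hKm]
    conv_rhs => rw [← SemidirectProduct.inl_left_mul_inr_right w]
    exact (X.mul_mem_cancel_right (hr _)).symm
  have hinj : Function.Injective f := fun S T h =>
    le_antisymm ((hf S T).1 h.le) ((hf T S).1 h.ge)
  exact
    { toEquiv := Equiv.ofBijective f ⟨hinj, hsurj⟩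
      map_rel_iff' := fun {S T} => hf S T }

end Vale.Agent.P183.H577
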