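import Vale.Agent.P183.R2.H668.KW.Spec

set_option autoImplicit false

/-!
The number of graphs without four-cycles (Kleitman and Winston), row B: deletion of a vertex of
least degree.
-/

namespace Vale.Agent.P183.R2.H808.KW

open Finset Vale.Agent.P183.R2.H668.KW

variable {V : Type}

/-- the graphs without four-cycles with all edges inside `T` -/
def FS (T : Finset V) : Set (SimpleGraph V) := {G | C4Free G ∧ ∀ x y, G.Adj x y → x ∈ T}

/-- `G` without the edges at `v` -/
def del (G : SimpleGraph V) (v : V) : SimpleGraph V where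
  Adj x y := G.Adj x y ∧ x ≠ v ∧ y ≠ v
  symm := ⟨fun _ _ h => ⟨h.1.symm, h.2.2, h.2.1⟩⟩
  loopless := ⟨fun _ h => h.1.ne rfl⟩

theorem del_adj {G : SimpleGraph V} {v x y : V} :
    (del G v).Adj x y ↔ G.Adj x y ∧ x ≠ v ∧ y ≠ v := Iff.rfl

/-- the neighbours -/
noncomputable def nb [Finite V] (G : SimpleGraph V) (v : V) : Finset V :=
  (Set.toFinite {y | G.Adj v y}).toFinset

theorem mem_nb [Finite V] {G : SimpleGraph V} {v y : V} : y ∈ nb G v ↔ G.Adj v y := by
  rw [nb, Set.Finite.mem_toFinset]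
  rfl

theorem card_nb [Finite V] (G : SimpleGraph V) (v : V) :
    (nb G v).card = {y | G.Adj v y}.ncard :=
  (Set.ncard_eq_toFinset_card _ _).symm

theorem del_mem [DecidableEq V] {T : Finset V} {G : SimpleGraph V} (hG : G ∈ FS T) (v : V) :
    del G v ∈ FS (T.erase v) := by
  refine ⟨fun a b x y h1 h2 h3 h4 h5 => ?_, fun x y h => ?_⟩
  · exact hG.1 a b x y h1 h2.1 h3.1 h4.1 h5.1
  · exact mem_erase.2 ⟨h.2.1, hG.2 x y h.1⟩

theorem nb_mem [Finite V] [DecidableEq V] {T : Finset V} {G : SimpleGraph V} (hG : G ∈ FS T)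
    {v : V} (hv : ∀ x ∈ T, {y | G.Adj v y}.ncard ≤ {y | G.Adj x y}.ncard) :
    nb G v ∈ nbhds (del G v) (T.erase v) := by
  refine ⟨fun y hy => ?_, fun x hx => ?_, ?_⟩
  · have h := mem_nb.1 hy
    exact mem_erase.2 ⟨h.ne', hG.2 y v h.symm⟩
  · have hxv := (mem_erase.1 hx).1
    rw [card_nb]
    refine (hv x (mem_erase.1 hx).2).trans ?_
    refine le_trans (Set.ncard_le_ncard (t := insert v {y | (del G v).Adj x y}) ?_
      (Set.toFinite _)) (Set.ncard_insert_le _ _)
    intro y hy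
    by_cases hyv : y = v
    · exact Or.inl hyv
    · exact Or.inr ⟨hy, hxv, hyv⟩
  · rintro x hx y hy hxy ⟨w, h1, h2⟩
    exact hxy (hG.1 v w x y (Ne.symm h1.2.1) (mem_nb.1 hx) h1.1 (mem_nb.1 hy) h2.1)

theorem inj [Finite V] {G G' : SimpleGraph V} {v : V} (h1 : del G v = del G' v)
    (h2 : nb G v = nb G' v) : G = G' := by
  have hb : ∀ y, G.Adj v y ↔ G'.Adj v y := fun y => by rw [← mem_nb, ← mem_nb, h2]
  ext x y
  by_cases hx : x = v
  · rw [hx]
    exact hb y
  · by_cases hy : y = v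
    · rw [hy, SimpleGraph.adj_comm G, SimpleGraph.adj_comm G']
      exact hb x
    · have h3 : (del G v).Adj x y ↔ (del G' v).Adj x y := by rw [h1]
      rw [del_adj, del_adj] at h3
      exact ⟨fun h => (h3.1 ⟨h, hx, hy⟩).1, fun h => (h3.2 ⟨h, hx, hy⟩).1⟩

/-- the numerical step -/
theorem num (C : ℝ) (hC : 0 < C) (t : ℕ) :
    ((t + 1 : ℕ) : ℝ) * (Real.exp ((C + 2) * (t : ℝ) ^ (3 / 2 : ℝ)) *
      Real.exp (C * (t : ℝ) ^ (1 / 2 : ℝ))) ≤
      Real.exp ((C + 2) * ((t + 1 : ℕ) : ℝ) ^ (3 / 2 : ℝ)) := by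
  have h32 : ∀ x : ℝ, 0 ≤ x → x ^ (3 / 2 : ℝ) = x * √x := by
    intro x hx
    have h : (3 / 2 : ℝ) = 1 + 1 / 2 := by norm_num
    rw [h, Real.rpow_add_of_nonneg hx (by norm_num) (by norm_num), Real.rpow_one,
      Real.sqrt_eq_rpow]
  have ht0 : (0 : ℝ) ≤ (t : ℝ) := Nat.cast_nonneg t
  have hs1 : ((t + 1 : ℕ) : ℝ) = (t : ℝ) + 1 := by push_cast; ring
  rw [hs1, h32 _ ht0, h32 _ (by linarith), ← Real.sqrt_eq_rpow]
  have hpos : (0 : ℝ) < (t : ℝ) + 1 := by linarith
  have hsq : 0 < √((t : ℝ) + 1) := Real.sqrt_pos.2 hpos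
  have hmono : √(t : ℝ) ≤ √((t : ℝ) + 1) := Real.sqrt_le_sqrt (by linarith)
  have hlog : Real.log ((t : ℝ) + 1) ≤ 2 * √((t : ℝ) + 1) := by
    have h1 := Real.log_le_sub_one_of_pos hsq
    rw [Real.log_sqrt hpos.le] at h1
    linarith
  have he : (t : ℝ) + 1 = Real.exp (Real.log ((t : ℝ) + 1)) := (Real.exp_log hpos).symm
  calc ((t : ℝ) + 1) * (Real.exp ((C + 2) * (t * √(t : ℝ))) * Real.exp (C * √(t : ℝ)))
      = Real.exp (Real.log ((t : ℝ) + 1) + ((C + 2) * (t * √(t : ℝ)) + C * √(t : ℝ))) := by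
        rw [Real.exp_add, Real.exp_add, Real.exp_log hpos]
    _ ≤ Real.exp ((C + 2) * (((t : ℝ) + 1) * √((t : ℝ) + 1))) := by
        apply Real.exp_le_exp.2
        have h2 : (t : ℝ) * √(t : ℝ) ≤ t * √((t : ℝ) + 1) :=
          mul_le_mul_of_nonneg_left hmono ht0
        have h3 : (C + 2) * ((t : ℝ) * √(t : ℝ)) ≤ (C + 2) * (t * √((t : ℝ) + 1)) :=
          mul_le_mul_of_nonneg_left h2 (by linarith)
        have h4 : C * √(t : ℝ) ≤ C * √((t : ℝ) + 1) := mul_le_mul_of_nonneg_left hmono hC.le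
        nlinarith

theorem bound [Finite V] (C : ℝ) (hC : 0 < C)
    (hA : ∀ G : SimpleGraph V, C4Free G → ∀ T : Finset V, (∀ x y, G.Adj x y → x ∈ T) →
      ((nbhds G T).ncard : ℝ) ≤ Real.exp (C * (T.card : ℝ) ^ (1 / 2 : ℝ))) (t : ℕ) :
    ∀ T : Finset V, T.card = t →
      ((FS T).ncard : ℝ) ≤ Real.exp ((C + 2) * (t : ℝ) ^ (3 / 2 : ℝ)) := by
  classical
  induction t with
  | zero =>
    intro T hT
    have hT0 : T = ∅ := card_eq_zero.1 hT
    have h1 : (FS T).ncard ≤ 1 := by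
      refine (Set.ncard_le_one_iff_subset_singleton (Set.toFinite _)).2 ⟨⊥, fun G hG => ?_⟩
      rw [Set.mem_singleton_iff, eq_bot_iff]
      intro x y h
      have := hG.2 x y h
      rw [hT0] at this
      exact absurd this (notMem_empty x)
    have h2 : ((FS T).ncard : ℝ) ≤ 1 := by exact_mod_cast h1
    refine h2.trans (Real.one_le_exp ?_)
    positivity
  | succ t ih =>
    intro T hT
    have hTn : T.Nonempty := by
      rw [← card_pos, hT]
      exact Nat.succ_pos t
    have hfin : Finite (SimpleGraph V) := inferInstance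
    let Ff : Finset V → Finset (SimpleGraph V) := fun T => (Set.toFinite (FS T)).toFinset
    have hFf : ∀ T G, G ∈ Ff T ↔ G ∈ FS T := fun T G => Set.Finite.mem_toFinset _
    have hFc : ∀ T, (Ff T).card = (FS T).ncard := fun T => (Set.ncard_eq_toFinset_card _ _).symm
    let Nb : SimpleGraph V → Finset V → Finset (Finset V) := fun G T =>
      (Set.toFinite (nbhds G T)).toFinset
    have hNb : ∀ G T I, I ∈ Nb G T ↔ I ∈ nbhds G T := fun G T I => Set.Finite.mem_toFinset _
    have hNc : ∀ G T, (Nb G T).card = (nbhds G T).ncard := fun G T =>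
      (Set.ncard_eq_toFinset_card _ _).symm
    have hmin : ∀ G : SimpleGraph V, ∃ v ∈ T, ∀ x ∈ T,
        {y | G.Adj v y}.ncard ≤ {y | G.Adj x y}.ncard := fun G =>
      exists_min_image T (fun x => {y | G.Adj x y}.ncard) hTn
    choose m hmT hm using hmin
    let D : Finset (Σ _ : V, Σ _ : SimpleGraph V, Finset V) :=
      T.sigma fun v => (Ff (T.erase v)).sigma fun G' => Nb G' (T.erase v)
    have hcard : (Ff T).card ≤ D.card := by
      refine card_le_card_of_injOn (fun G => ⟨m G, del G (m G), nb G (m G)⟩) ?_ ?_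
      · intro G hG
        have hG' := (hFf T G).1 hG
        simp only [D, coe_sigma, Set.mem_sigma_iff, mem_coe]
        exact ⟨hmT G, (hFf _ _).2 (del_mem hG' _), (hNb _ _ _).2 (nb_mem hG' (hm G))⟩
      · intro G _ G' _ h
        simp only [Sigma.mk.injEq] at h
        obtain ⟨h1, h2⟩ := h
        rw [heq_eq_eq, Sigma.mk.injEq, heq_eq_eq] at h2
        obtain ⟨h2, h3⟩ := h2
        rw [← h1] at h2 h3
        exact inj h2 h3
    have hc : ∀ v ∈ T, (T.erase v).card = t := fun v hv => by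
      rw [card_erase_of_mem hv, hT]
      rfl
    have hD : (D.card : ℝ) ≤ ((t + 1 : ℕ) : ℝ) *
        (Real.exp ((C + 2) * (t : ℝ) ^ (3 / 2 : ℝ)) * Real.exp (C * (t : ℝ) ^ (1 / 2 : ℝ))) := by
      have h1 : D.card = ∑ v ∈ T, ∑ G' ∈ Ff (T.erase v), (Nb G' (T.erase v)).card := by
        rw [card_sigma]
        exact sum_congr rfl fun v _ => card_sigma _ _
      rw [h1, Nat.cast_sum]
      calc ∑ v ∈ T, ((∑ G' ∈ Ff (T.erase v), (Nb G' (T.erase v)).card : ℕ) : ℝ)
          ≤ ∑ v ∈ T, (Real.exp ((C + 2) * (t : ℝ) ^ (3 / 2 : ℝ)) *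
              Real.exp (C * (t : ℝ) ^ (1 / 2 : ℝ))) := by
            refine sum_le_sum fun v hv => ?_
            rw [Nat.cast_sum]
            calc ∑ G' ∈ Ff (T.erase v), ((Nb G' (T.erase v)).card : ℝ)
                ≤ ∑ G' ∈ Ff (T.erase v), Real.exp (C * (t : ℝ) ^ (1 / 2 : ℝ)) := by
                  refine sum_le_sum fun G' hG' => ?_
                  have h2 := (hFf _ _).1 hG'
                  have h3 := hA G' h2.1 (T.erase v) h2.2
                  rw [hNc]
                  rwa [hc v hv] at h3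
              _ = ((Ff (T.erase v)).card : ℝ) * Real.exp (C * (t : ℝ) ^ (1 / 2 : ℝ)) := by
                  rw [sum_const, nsmul_eq_mul]
              _ ≤ _ := by
                  refine mul_le_mul_of_nonneg_right ?_ (Real.exp_pos _).le
                  rw [hFc]
                  exact ih _ (hc v hv)
        _ = _ := by rw [sum_const, nsmul_eq_mul, hT]
    have h5 : ((FS T).ncard : ℝ) ≤ (D.card : ℝ) := by
      rw [← hFc]
      exact_mod_cast hcard
    exact (h5.trans hD).trans (num C hC t)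

/-- **Row B.** -/
theorem rowB (hA : StA) : StB := by
  obtain ⟨C, hC, h⟩ := hA
  refine ⟨C + 2, by linarith, fun V _ => ?_⟩
  have : Fintype V := Fintype.ofFinite V
  have h1 := bound C hC (fun G hG T hT => h V G hG T hT) (univ : Finset V).card univ rfl
  have h2 : (FS (univ : Finset V)) = {G : SimpleGraph V | C4Free G} := by
    ext G
    exact ⟨fun hG => hG.1, fun hG => ⟨hG, fun x _ _ => mem_univ x⟩⟩
  rw [h2] at h1
  rwa [Nat.card_eq_fintype_card]

end Vale.Agent.P183.R2.H808.KW
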